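import Crest.Agent.R264.Model.Psc

/-! Auxiliary facts for the scaling limit. -/

set_option autoImplicit false
set_option linter.unusedSectionVars false
open Set Filter Topology Metric Complex

namespace Crest.Agent.R264

variable {E : Type} [NormedAddCommGroup E] [NormedSpace ℂ E] [NormedSpace ℝ E] [IsScalarTower ℝ ℂ E]
  [FiniteDimensional ℂ E] {A B : Type} [Fintype A] [Fintype B] {G : Geo A B} {R : Amb A B → ℝ} {n : ℕ} {X : Set E}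
  {π : E → Amb A B} {S : Sq E A B}

theorem sc_sc_inv {l : ℝ} (hl : l ≠ 0) (m : Amb A B) : sc l (sc l⁻¹ m) = m := by
  have : (l : ℂ) ≠ 0 := ofReal_ne_zero.2 hl
  simp [sc, smul_smul, hl, this]

theorem sc_inv_sc {l : ℝ} (hl : l ≠ 0) (m : Amb A B) : sc l⁻¹ (sc l m) = m := by
  simpa using sc_sc_inv (inv_ne_zero hl) m

theorem sc_cont : Continuous fun p : ℝ × Amb A B => sc p.1 p.2 := by unfold sc; fun_prop

theorem sc_an (l : ℝ) (m : Amb A B) : AnalyticAt ℂ (sc l) m :=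
  (analyticAt_const.mul analyticAt_fst).prod
    (((analyticAt_fst.comp analyticAt_snd).const_smul (c := l)).prod (analyticAt_snd.comp analyticAt_snd))

theorem exists_piece {F : Type} [NormedAddCommGroup F] {J : Type} {l : Filter J} {f : J → E → F} {g : E → F}
    (hX : Mfd n X) (hl : TendstoLocallyUniformlyOn f g l X) {x : E} (hx : x ∈ X) (hg : ContinuousWithinAt g X x)
    {V : Set F} (hV : V ∈ 𝓝 (g x)) :
    ∃ O, IsOpen O ∧ x ∈ O ∧ IsPreconnected (X ∩ O) ∧ ∀ᶠ j in l, ∀ y ∈ X ∩ O, f j y ∈ V := by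
  obtain ⟨ε, hε, hV⟩ := Metric.mem_nhds_iff.1 hV
  obtain ⟨t, ht, H⟩ := Metric.tendstoLocallyUniformlyOn_iff.1 hl (ε / 2) (half_pos hε) x hx
  obtain ⟨U, hU, hU'⟩ := mem_nhdsWithin_iff_exists_mem_nhds_inter.1 (inter_mem ht (hg (ball_mem_nhds _ (half_pos hε))))
  obtain ⟨O, oO, xO, OU, cO, -⟩ := hX.nbhd hx hU
  refine ⟨O, oO, xO, cO, H.mono fun j hj y hy => hV ?_⟩
  obtain ⟨h1, h2⟩ := hU' ⟨OU hy.2, hy.1⟩
  exact mem_ball.2 ((dist_triangle_left _ _ (g y)).trans_lt (by linarith [hj y h1, mem_ball.1 h2]))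

/-- everything that holds on the fibres near the fibre of `z` -/
structure Geo.GoodAt (G : Geo A B) (z : Amb A B) (τ : B → ℂ) : Prop where
  t : (G.b z τ).2.2 = τ
  Z : G.b z τ ∈ G.Z
  nd : G.nd (G.b z τ)
  co : ∀ q : Amb A B, q.2.2 = τ → AnalyticAt ℂ (G.co z) q ∧ AnalyticAt ℂ (G.ico z) q ∧ G.ico z (G.co z q) = q ∧
    G.co z (G.ico z q) = q
  ico0 : G.ico z (0, 0, τ) = G.b z τ
  germ : G.b (G.b z τ) =ᶠ[𝓝 τ] G.b z ∧ G.co (G.b z τ) =ᶠ[𝓝 (G.b z τ)] G.co z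
  scale : ∀ m : Amb A B, m.2.2 = τ →
    (G.InM z m → ∀ᶠ p : ℝ × Amb A B in 𝓝[Ioi 0 ×ˢ univ] (0, m), 0 < G.r z (G.ico z (sc p.1 p.2))) ∧
    (m.1.im < G.Q (G.b z τ) m.2.1 → ∀ᶠ p : ℝ × Amb A B in 𝓝[Ioi 0 ×ˢ univ] (0, m), G.r z (G.ico z (sc p.1 p.2)) < 0)

theorem Geo.OK.good (h : G.OK R) {z : Amb A B} (hz : z ∈ G.Z) (hn : G.nd z) :
    ∀ᶠ τ in 𝓝 z.2.2, ∀ᶠ τ' in 𝓝 τ, G.GoodAt z τ' := by
  obtain ⟨T, hT, oT, bih, hT'⟩ := h.co_ico hz
  refine Eventually.eventually_nhds ?_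
  filter_upwards [hT, (h.nd_near hz hn).1, h.b_germ hz, h.scale_in hz hn] with τ h1 h2 h3 h4
  refine ⟨(hT' τ h1).2.2.1, (hT' τ h1).2.2.2, h2, fun q hq => ?_, (hT' τ h1).2.1, h3, h4⟩
  have hq' : q.2.2 ∈ T := hq ▸ h1
  have : {q : Amb A B | q.2.2 ∈ T} ∈ 𝓝 q := (continuous_snd.snd.tendsto q) (oT.mem_nhds hq')
  exact ⟨bih.af.analyticAt this, bih.ag.analyticAt this, bih.gf q hq', bih.fg q hq'⟩

theorem Geo.GoodAt.tendsto_ico {z m : Amb A B} (g : G.GoodAt z m.2.2) :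
    Tendsto (fun p : ℝ × Amb A B => G.ico z (sc p.1 p.2)) (𝓝 (0, m)) (𝓝 (G.b z m.2.2)) := by
  rw [← g.ico0]
  exact (g.co (0, 0, m.2.2) rfl).2.1.continuousAt.tendsto.comp (sc_cont.tendsto' _ _ (by simp [sc]))

/-- consequences of the convergence of the rescaled coordinates -/
theorem Geo.lim_b {z m : Amb A B} (g : ∀ᶠ τ in 𝓝 m.2.2, G.GoodAt z τ) {J : Type} {l : Filter J} [l.NeBot]
    {lam : J → ℝ} (hp : ∀ j, 0 < lam j) (h0 : Tendsto lam l (𝓝 0)) {q : J → Amb A B}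
    (hq : Tendsto (fun j => sc (lam j)⁻¹ (G.co z (q j))) l (𝓝 m)) :
    (∀ᶠ j in l, G.ico z (sc (lam j) (sc (lam j)⁻¹ (G.co z (q j)))) = q j) ∧ Tendsto q l (𝓝 (G.b z m.2.2)) ∧
      (G.InM z m → ∀ᶠ j in l, 0 < G.r z (q j)) ∧
      ((∀ᶠ j in l, 0 ≤ G.r z (q j)) → G.Q (G.b z m.2.2) m.2.1 ≤ m.1.im) := by
  have e : ∀ᶠ j in l, G.ico z (sc (lam j) (sc (lam j)⁻¹ (G.co z (q j)))) = q j :=
    (((continuous_snd.snd.tendsto m).comp hq).eventually g).mono fun j hj => by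
      rw [sc_sc_inv (hp j).ne']; exact (hj.co (q j) rfl).2.2.1
  have t : Tendsto (fun j => (lam j, sc (lam j)⁻¹ (G.co z (q j)))) l (𝓝[Ioi 0 ×ˢ univ] (0, m)) :=
    tendsto_nhdsWithin_iff.2 ⟨h0.prodMk_nhds hq, Eventually.of_forall fun j => ⟨hp j, trivial⟩⟩
  refine ⟨e, (g.self_of_nhds.tendsto_ico.comp (h0.prodMk_nhds hq)).congr' e, fun hm => ?_, fun hr => not_lt.1 fun hm => ?_⟩
  · filter_upwards [e, t.eventually ((g.self_of_nhds.scale m rfl).1 hm)] with j h1 h2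
    rwa [h1] at h2
  · obtain ⟨j, ⟨h1, h2⟩, h3⟩ := ((e.and (t.eventually ((g.self_of_nhds.scale m rfl).2 hm))).and hr).exists
    rw [h1] at h2
    exact h3.not_gt h2

theorem Geo.GoodAt.tr_an (h : G.OK R) {z m : Amb A B} (g : G.GoodAt z m.2.2) (c : ℝ) (a : A → ℂ) :
    AnalyticAt ℂ (G.tr z c a) m := by
  have k : ∀ {V : Type} [NormedAddCommGroup V] [NormedSpace ℂ V] (φ : Amb A B → V),
      AnalyticAt ℂ (fun τ => φ (G.b (G.b z m.2.2) τ)) (G.b z m.2.2).2.2 →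
      AnalyticAt ℂ (fun m' : Amb A B => φ (G.b z m'.2.2)) m := fun φ hφ => by
    rw [g.t] at hφ
    exact (hφ.congr (g.germ.1.mono fun τ hτ => congrArg φ hτ)).comp (f := fun m' : Amb A B => m'.2.2)
      (analyticAt_snd.comp analyticAt_snd)
  have a2 : AnalyticAt ℂ (fun m' : Amb A B => m'.2.1) m := analyticAt_fst.comp analyticAt_snd
  exact (((analyticAt_fst.add (((ContinuousLinearMap.id ℂ ((A → ℂ) →L[ℂ] ℂ)).analyticAt_bilinear _).comp₂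
    (k (fun q => G.be q a) (h.anbe _ g.Z a)) a2)).add (k (fun q => G.eta q a a) (h.aneta _ g.Z a a))).add
    analyticAt_const).prod ((a2.add (k (fun q => G.xi q a) (h.anxi _ g.Z a))).prod
      (analyticAt_snd.comp analyticAt_snd))

theorem w_an (Sq : (A → ℂ) →L[ℂ] (A → ℂ) →L[ℂ] ℂ) (m : Amb A B) :
    AnalyticAt ℂ (fun m : Amb A B => m.1 - Sq m.2.1 m.2.1) m :=
  analyticAt_fst.sub ((Sq.analyticAt_bilinear _).comp₂ (analyticAt_fst.comp analyticAt_snd)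
    (analyticAt_fst.comp analyticAt_snd))

theorem w_sc (Sq : (A → ℂ) →L[ℂ] (A → ℂ) →L[ℂ] ℂ) (l : ℝ) (m : Amb A B) :
    (sc l m).1 - Sq (sc l m).2.1 (sc l m).2.1 = ((l ^ 2 : ℝ) : ℂ) * (m.1 - Sq m.2.1 m.2.1) := by
  simp only [sc, ContinuousLinearMap.map_smul_of_tower, smul_apply, real_smul, ofReal_pow]
  ring

theorem Bih.image_inter {f g : E → E} (b : Bih X X f g) {O : Set E} (hO : IsOpen O) :
    ∃ O', IsOpen O' ∧ X ∩ O' = f '' (X ∩ O) := by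
  obtain ⟨O', oO, e⟩ := continuousOn_iff'.1 b.ag.continuousOn O hO
  refine ⟨O', oO, ?_⟩
  rw [inter_comm, ← e]
  ext y
  exact ⟨fun hy => ⟨g y, ⟨b.mg hy.2, hy.1⟩, b.fg y hy.2⟩, by
    rintro ⟨x, hx, rfl⟩
    exact ⟨by rw [mem_preimage, b.gf x hx.1]; exact hx.2, b.mf hx.1⟩⟩

theorem Sq.OK.tendsto_P (hS : S.OK G X π) {y : E} (hy : y ∈ X) : Tendsto (fun j => π (S.g j y)) S.U (𝓝 (S.P y)) :=
  hS.conv.tendsto_at hy

theorem Sq.OK.t_eq (hS : S.OK G X π) {z m : Amb A B} {y : E} (hy : y ∈ X)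
    (h : Tendsto (S.Ph G π z y) S.U (𝓝 m)) : m.2.2 = S.tP y :=
  tendsto_nhds_unique (f := fun j => (π (S.g j y)).2.2) ((continuous_snd.snd.tendsto m).comp h :)
    ((continuous_snd.snd.tendsto _).comp (hS.tendsto_P hy))

/-- following gives model points -/
theorem Geo.Datum.mod (h : G.OK R) (hS : S.OK G X π) {z : Amb A B} (hz : z ∈ G.Z) (hn : G.nd z)
    {W N : Set (Amb A B)} {σ : Amb A B → E} (d : G.Datum X π z W N σ) : ∀ᶠ τ in 𝓝 z.2.2, ∀ y ∈ X, ∀ m : Amb A B,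
      m.2.2 = τ → S.Foll G π z W σ y m → S.P y = G.b z τ ∧ S.MOD G X π y m := by
  filter_upwards [h.good hz hn, d.move h hz hn] with τ g ⟨W', _, d', e⟩ y hy m hm f
  subst hm
  have t := (Geo.lim_b g hS.pos hS.lim f.2.1).2.1
  have eP := tendsto_nhds_unique (hS.tendsto_P hy) t
  have g := g.self_of_nhds
  refine ⟨eP, hy, eP ▸ g.Z, eP ▸ g.nd, W', N, σ, eP ▸ d', ?_⟩
  rw [eP]
  refine ⟨?_, f.2.1.congr' ((t.eventually g.germ.2).mono fun j hj => congrArg (sc _) hj.symm), ?_⟩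
  · filter_upwards [f.1, t.eventually (d'.oW.mem_nhds d'.zW)] with j h1 h2
    exact ⟨⟨h2, h1.1.2.trans_eq (e h2)⟩, h1.2⟩
  · rw [Geo.InM, g.germ.1.self_of_nhds]; exact f.2.2

end Crest.Agent.R264
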