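import Crest.Agent.R264.Model.Co

/-! Analytic discs: second order estimates and the continuity principle. -/

set_option autoImplicit false
set_option linter.unusedSectionVars false
open Set Filter Topology Metric Complex

namespace Crest.Agent.R264

variable {E F : Type} [NormedAddCommGroup E] [NormedSpace ℂ E] [NormedSpace ℝ E] [IsScalarTower ℝ ℂ E]
  [FiniteDimensional ℂ E] [NormedAddCommGroup F] [NormedSpace ℂ F] [NormedSpace ℝ F] [IsScalarTower ℝ ℂ F]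
  [FiniteDimensional ℂ F]

theorem small_quad {K : F × ℂ → ℝ} {z : F} (hK : AnalyticAt ℝ K (z, 0))
    (h0 : ∀ᶠ q in 𝓝 z, K (q, 0) = 0 ∧ HasFDerivAt (fun ζ => K (q, ζ)) (0 : ℂ →L[ℝ] ℝ) 0) (h1 : ∀ ζ, K (z, ζ) = 0)
    {ε : ℝ} (hε : 0 < ε) : ∀ᶠ p in 𝓝 (z, (0 : ℂ)), |K p| ≤ ε * ‖p.2‖ ^ 2 := by
  let φ : F × ℂ → ℂ →L[ℝ] ℝ := fun p => (fderiv ℝ K p).comp (ContinuousLinearMap.inr ℝ F ℂ)
  have hφ := ((hK.fderiv.contDiffAt (n := 1)).clm_comp (contDiffAt_const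
    (c := ContinuousLinearMap.inr ℝ F ℂ))).hasStrictFDerivAt one_ne_zero
  have hd : ∀ᶠ p in 𝓝 (z, (0 : ℂ)), HasFDerivAt (fun ζ => K (p.1, ζ)) (φ p) p.2 :=
    hK.eventually_analyticAt.mono fun p hp => hp.differentiableAt.hasFDerivAt.comp p.2 (hasFDerivAt_prodMk_right _ _)
  have t1 : Tendsto (fun ζ : ℂ => (z, ζ)) (𝓝 0) (𝓝 (z, 0)) := (Continuous.prodMk_right z).tendsto 0
  have t2 : Tendsto (fun p : F × ℂ => (p.1, (0 : ℂ))) (𝓝 (z, 0)) (𝓝 (z, 0)) :=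
    (continuous_fst.prodMk continuous_const).tendsto _
  have e1 : (fderiv ℝ φ (z, 0)).comp (ContinuousLinearMap.inr ℝ F ℂ) = 0 :=
    (hφ.hasFDerivAt.comp 0 (hasFDerivAt_prodMk_right z 0)).unique ((hasFDerivAt_const 0 0).congr_of_eventuallyEq
      ((t1.eventually hd).mono fun ζ hζ => hζ.unique (by simp only [h1]; exact hasFDerivAt_const _ _)))
  have e2 : ∀ᶠ p in 𝓝 (z, (0 : ℂ)), ‖φ p‖ ≤ ε * ‖p.2‖ := by
    filter_upwards [(tendsto_id.prodMk_nhds t2).eventually (hφ.isLittleO.def hε), t2.eventually hd,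
      (continuous_fst.tendsto (z, (0 : ℂ))).eventually h0] with p a1 a2 a3
    have a4 : φ (p.1, 0) = 0 := a2.unique a3.2
    have a5 : fderiv ℝ φ (z, 0) (p - (p.1, 0)) = 0 := by
      rw [show p - (p.1, 0) = ContinuousLinearMap.inr ℝ F ℂ p.2 by ext <;> simp]
      exact DFunLike.congr_fun e1 p.2
    have a6 : ‖p - (p.1, 0)‖ = ‖p.2‖ := by simp [Prod.norm_def]
    change ‖φ p - φ (p.1, 0) - fderiv ℝ φ (z, 0) (p - (p.1, 0))‖ ≤ ε * ‖p - (p.1, 0)‖ at a1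
    rwa [a4, a5, a6, sub_zero, sub_zero] at a1
  have e3 := e2.and hd
  rw [nhds_prod_eq, eventually_prod_iff] at e3
  obtain ⟨pa, ha, pb, hb, H⟩ := e3
  obtain ⟨δ, hδ, hb⟩ := eventually_nhds_iff_ball.1 hb
  filter_upwards [prod_mem_nhds (ha.and h0) (ball_mem_nhds 0 hδ)] with p hp
  have hs : ∀ ζ ∈ closedBall (0 : ℂ) ‖p.2‖, pb ζ := fun ζ hζ =>
    hb ζ (closedBall_subset_ball (mem_ball_zero_iff.1 hp.2) hζ)
  have := (convex_closedBall (0 : ℂ) ‖p.2‖).norm_image_sub_le_of_norm_hasFDerivWithin_le (C := ε * ‖p.2‖)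
    (f := fun ζ => K (p.1, ζ))
    (fun ζ hζ => (H hp.1.1 (hs ζ hζ)).2.hasFDerivWithinAt)
    (fun ζ hζ => (H hp.1.1 (hs ζ hζ)).1.trans (mul_le_mul_of_nonneg_left (mem_closedBall_zero_iff.1 hζ) hε.le))
    (mem_closedBall_self (norm_nonneg _)) (mem_closedBall_zero_iff.2 le_rfl)
  rwa [hp.1.2.1, sub_zero, sub_zero, mul_assoc, ← sq] at this

theorem re_smul (D : F →L[ℝ] ℝ) (ζ : ℂ) (v : F) : D (ζ • v) = (ζ * (D v - I * D (I • v))).re := by
  have : ζ • v = ζ.re • v + ζ.im • (I • v) := by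
    nth_rw 1 [← re_add_im ζ]
    rw [add_smul, mul_smul, ← Complex.coe_algebraMap, algebraMap_smul, algebraMap_smul]
  rw [this]; simp

/-- discs tangent to the level sets of `r` -/
theorem exists_discs {r : F → ℝ} {z e v s : F} (hr : AnalyticAt ℝ r z) (he : fderiv ℝ r z e ≠ 0)
    (hv : ∀ ζ : ℂ, fderiv ℝ r z (ζ • v) = 0) {c : ℝ} (hc : 0 < c)
    (h : ∀ᶠ ζ : ℂ in 𝓝 0, r z + 2 * c * ‖ζ‖ ^ 2 ≤ r (z + ζ • v + ζ ^ 2 • s)) :
    ∃ a : F → F, AnalyticAt ℝ a z ∧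
      ∀ᶠ p in 𝓝 (z, (0 : ℂ)), r p.1 + c * ‖p.2‖ ^ 2 ≤ r (p.1 + p.2 • a p.1 + p.2 ^ 2 • s) := by
  let l : F → F → ℂ := fun q w => fderiv ℝ r q w - I * fderiv ℝ r q (I • w)
  have hl : ∀ w, AnalyticAt ℝ (fun q => l q w) z := fun w => by
    have k : ∀ w, AnalyticAt ℝ (fun q => ((fderiv ℝ r q w : ℝ) : ℂ)) z := fun w =>
      (ofRealCLM.comp (ContinuousLinearMap.apply ℝ ℝ w)).analyticAt _ |>.comp hr.fderiv
    exact (k _).sub (analyticAt_const.mul (k _))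
  have hle : l z e ≠ 0 := fun h0 => he (by simpa [l] using congrArg re h0)
  have hlv : l z v = 0 := by simp only [l, hv I, (by simpa using hv 1 : fderiv ℝ r z v = 0)]; simp
  let a : F → F := fun q => v - (l q v / l q e) • e
  have ha : AnalyticAt ℝ a z := analyticAt_const.sub (((hl v).div (hl e) hle).smul analyticAt_const)
  have haz : a z = v := by simp [a, hlv]
  refine ⟨a, ha, ?_⟩
  have hγ : ∀ {b : F × ℂ → F} {a' : F × ℂ → F}, AnalyticAt ℝ b (z, 0) → AnalyticAt ℝ a' (z, 0) → b (z, 0) = z →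
      AnalyticAt ℝ (fun p : F × ℂ => r (b p + p.2 • a' p + p.2 ^ 2 • s)) (z, 0) := fun hb ha' h0 =>
    hr.comp_of_eq ((hb.add (analyticAt_snd.smul ha')).add ((analyticAt_snd.pow 2).smul analyticAt_const))
      (by simp [h0])
  have hder : ∀ q w : F, DifferentiableAt ℝ r q → (∀ ζ : ℂ, fderiv ℝ r q (ζ • w) = 0) →
      HasFDerivAt (fun ζ : ℂ => r (q + ζ • w + ζ ^ 2 • s)) (0 : ℂ →L[ℝ] ℝ) 0 := fun q w hq hw => by
    have h1 : HasFDerivAt (fun ζ : ℂ => q + ζ • w + ζ ^ 2 • s)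
        ((ContinuousLinearMap.toSpanSingleton ℂ w).restrictScalars ℝ) 0 := by
      refine HasFDerivAt.restrictScalars ℝ (HasDerivAt.hasFDerivAt ?_)
      exact ((((hasDerivAt_id (0 : ℂ)).smul_const w).const_add q).add
        ((hasDerivAt_pow 2 (0 : ℂ)).smul_const s)).congr_deriv (by simp)
    refine ((HasFDerivAt.comp (g := r) 0 (by simpa using hq.hasFDerivAt) h1)).congr_fderiv ?_
    ext1 ζ
    simpa using hw ζ
  have key := small_quad (K := fun p : F × ℂ => r (p.1 + p.2 • a p.1 + p.2 ^ 2 • s) - r p.1 -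
      (r (z + p.2 • v + p.2 ^ 2 • s) - r z))
    (((hγ analyticAt_fst (ha.comp_of_eq analyticAt_fst rfl) rfl).sub (hr.comp_of_eq analyticAt_fst rfl)).sub
      ((hγ analyticAt_const analyticAt_const rfl).sub analyticAt_const)) (by
      filter_upwards [hr.eventually_analyticAt, (hl e).continuousAt.eventually_ne hle] with q hq hq'
      refine ⟨by simp, ?_⟩
      exact (((hder q (a q) hq.differentiableAt fun ζ => by
        rw [smul_sub, smul_smul, map_sub, re_smul _ _ v, re_smul _ _ e, mul_assoc, div_mul_cancel₀ _ hq',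
          sub_self]).sub_const (r q)).sub
        ((hder z v hr.differentiableAt hv).sub_const (r z))).congr_fderiv (sub_zero _)) (fun ζ => by simp [haz]) hc
  filter_upwards [key, (continuous_snd.tendsto (z, (0 : ℂ))).eventually h] with p h1 h2
  have := (abs_le.1 h1).1
  linarith

/-- the continuity principle -/
theorem disc_limit {n : ℕ} {X : Set E} (hX : CM n X) {V : Set F} (hV : IsOpen V) {σ : F → E}
    (hσ : AnalyticOnNhd ℂ σ V) (hm : MapsTo σ V X) {P : Type} [TopologicalSpace P] {p₀ : P} (U : Ultrafilter P)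
    (hU : (U : Filter P) ≤ 𝓝 p₀) {Γ : P → ℂ → F} {ρ : ℝ} (hρ : 0 < ρ) (hd : ∀ p, Differentiable ℂ (Γ p))
    (hc : ∀ ζ ∈ sphere (0 : ℂ) ρ, ContinuousAt (fun x : P × ℂ => Γ x.1 x.2) (p₀, ζ) ∧ Γ p₀ ζ ∈ V)
    (hin : ∀ᶠ p in U, ∀ ζ ∈ closedBall (0 : ℂ) ρ, Γ p ζ ∈ V) :
    ∃ x ∈ X, Tendsto (fun p => σ (Γ p 0)) U (𝓝 x) := by
  obtain ⟨ε, hε, hK⟩ := hX.cpt
  have h1 : ∀ᶠ p in 𝓝 p₀, ∀ ζ ∈ sphere (0 : ℂ) ρ, cd X (σ (Γ p₀ ζ)) (σ (Γ p ζ)) ≤ ε / 2 := by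
    refine (isCompact_sphere _ _).eventually_forall_of_forall_eventually fun ζ hζ => ?_
    have k : ∀ {g : P × ℂ → F}, Tendsto g (𝓝 (p₀, ζ)) (𝓝 (Γ p₀ ζ)) →
        Tendsto (fun x => σ (g x)) (𝓝 (p₀, ζ)) (𝓝[X] (σ (Γ p₀ ζ))) := fun hg =>
      tendsto_nhdsWithin_iff.2 ⟨(hσ _ (hc ζ hζ).2).continuousAt.tendsto.comp hg,
        (hg.eventually (hV.mem_nhds (hc ζ hζ).2)).mono fun _ h => hm h⟩
    have hx := hm (hc ζ hζ).2
    have t := (cd_continuousOn hX.mfd (_, _) ⟨hx, hx⟩).tendsto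
    rw [nhdsWithin_prod_eq] at t
    have t2 := t.comp ((k (((hd p₀).continuous.comp continuous_snd).tendsto _)).prodMk (k (hc ζ hζ).1))
    rw [cd_self] at t2
    exact t2.eventually (eventually_le_nhds (half_pos hε))
  have h2 := hin.and (h1.filter_mono hU)
  obtain ⟨p₁, hp₁⟩ := h2.exists
  have h0 : (0 : ℂ) ∈ closedBall (0 : ℂ) ρ := mem_closedBall_self hρ.le
  obtain ⟨x, hx, t⟩ := (hK _ (hm (hp₁.1 0 h0))).ultrafilter_le_nhds' (U.map fun p => σ (Γ p 0)) (by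
    refine h2.mono fun p hp => ⟨hm (hp.1 0 h0), cd_le fun f hf hb => ?_⟩
    have an : ∀ p, (∀ ζ ∈ closedBall (0 : ℂ) ρ, Γ p ζ ∈ V) → ∀ ζ ∈ closedBall (0 : ℂ) ρ,
        DifferentiableAt ℂ (fun ζ => f (σ (Γ p ζ))) ζ := fun p hp ζ hζ =>
      (anAt_comp_param ((hσ _ (hp ζ hζ)).comp ((hd p).analyticAt ζ))
        (((hd p).continuous.tendsto ζ).eventually (hV.mem_nhds (hp ζ hζ)) |>.mono fun _ h => hm h)
        (hf _ (hm (hp ζ hζ)))).differentiableAt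
    refine norm_le_of_forall_mem_frontier_norm_le (f := fun ζ => f (σ (Γ p₁ ζ)) - f (σ (Γ p ζ))) isBounded_ball
      (DifferentiableOn.diffContOnCl_ball (fun ζ hζ => ((an p₁ hp₁.1 ζ hζ).sub (an p hp.1 ζ hζ)).differentiableWithinAt)
        subset_rfl) (fun ζ hζ => ?_) (subset_closure (mem_ball_self hρ))
    rw [frontier_ball _ hρ.ne'] at hζ
    have m1 := hm (hp₁.1 ζ (sphere_subset_closedBall hζ))
    have m2 := hm (hp.1 ζ (sphere_subset_closedBall hζ))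
    have a1 := cd_triangle m1 (hm (hc ζ hζ).2) m2
    rw [cd_comm X (σ (Γ p₁ ζ)) (σ (Γ p₀ ζ))] at a1
    linarith [le_cd m1 m2 hf hb, hp₁.2 ζ hζ, hp.2 ζ hζ])
  exact ⟨x, hx.1, t⟩

end Crest.Agent.R264
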